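import Vale.Agent.Lib.P007.General

open MeasureTheory Filter Topology NumberField Polynomial
open scoped CompactlySupported
open Vale.Agent.Lib.P007

/-- A necessary condition for equidistribution, in every degree `n`: if probability measures
`μ i` carried by the packets of `(K i, O i, σ i)` converge weakly to an `SL_n(ℝ)`-invariant
probability measure, then for each integer polynomial `g` without integer roots all but finitely
many of the orders `O i` contain no root of `g`. -/
theorem Vale.Agent.Results.P007.SubfieldObstruction.result (n : ℕ) (hn : 0 < n)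
    (K : ℕ → Type) [∀ i, Field (K i)] [∀ i, NumberField (K i)]
    (σ : ∀ i, Fin n ≃ (K i →+* ℝ)) (O : ∀ i, Subring (𝓞 (K i)))
    (μ : ℕ → Measure (LatSpace n)) (hμ : ∀ i, μ i (packetSet (σ i) (O i))ᶜ = 0)
    (m : Measure (LatSpace n)) [IsProbabilityMeasure m]
    [SMulInvariantMeasure (SLR n) (LatSpace n) m]
    (hconv : ∀ f : C_c(LatSpace n, ℝ),
      Tendsto (fun i => ∫ x, f x ∂(μ i)) atTop (𝓝 (∫ x, f x ∂m)))
    (g : ℤ[X]) (hg : ∀ z : ℤ, g.eval z ≠ 0) :
    ∀ᶠ i in atTop, ∀ s ∈ O i, aeval s g ≠ 0 := by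
  obtain ⟨f, hpos, hf⟩ := obstruction n hn g hg m
  have h1 : ∀ᶠ i in atTop, 0 < ∫ x, f x ∂(μ i) := (hconv f).eventually (lt_mem_nhds hpos)
  filter_upwards [h1] with i hi s hs hsg
  exact hi.ne' (hf (K i) (σ i) (O i) ⟨s, hs, hsg⟩ (μ i) (hμ i))
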