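import Vale.Agent.Results.P007.CompositeDegreeFull
import Vale.Agent.Results.P007.SubfieldObstruction

open MeasureTheory Filter Topology NumberField Polynomial
open scoped CompactlySupported
open Vale.Agent.Lib.P007

/-- Both results on torus packets in one statement.
(1) In every composite degree `n ≥ 4` there are a totally real field `K` of degree `n` and orders
`O i` of `K` with `|Disc (O i)| → ∞` and nonempty packets such that no sequence of probability
measures carried by the packets converges weakly to an invariant probability measure.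
(2) In every degree: weak convergence of measures carried by the packets of `(K i, O i, σ i)` to
an invariant probability measure forces, for each integer polynomial `g` without integer roots,
all but finitely many `O i` to contain no root of `g`. -/
theorem Vale.Agent.Results.P007.Combined.result :
    (∀ n : ℕ, 4 ≤ n → ¬ n.Prime →
      ∃ (K : Type) (_ : Field K) (_ : NumberField K) (σ : Fin n ≃ (K →+* ℝ))
        (O : ℕ → Subring (𝓞 K)),
        IsTotallyReal K ∧ Module.finrank ℚ K = n ∧ (∀ i, IsOrder (O i)) ∧
        Tendsto (fun i => absDisc (O i)) atTop atTop ∧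
        (∀ i, (packetSet σ (O i)).Nonempty) ∧
        ∀ (m : Measure (LatSpace n)) [IsProbabilityMeasure m]
          [SMulInvariantMeasure (SLR n) (LatSpace n) m],
          ∃ f : C_c(LatSpace n, ℝ), 0 < ∫ x, f x ∂m ∧
            ∀ μ : ℕ → Measure (LatSpace n), (∀ i, IsProbabilityMeasure (μ i)) →
              (∀ i, μ i (packetSet σ (O i))ᶜ = 0) →
              (∀ i, ∫ x, f x ∂(μ i) = 0) ∧
              ¬ Tendsto (fun i => ∫ x, f x ∂(μ i)) atTop (𝓝 (∫ x, f x ∂m))) ∧
    (∀ n : ℕ, 0 < n →
      ∀ (K : ℕ → Type) [∀ i, Field (K i)] [∀ i, NumberField (K i)]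
        (σ : ∀ i, Fin n ≃ (K i →+* ℝ)) (O : ∀ i, Subring (𝓞 (K i)))
        (μ : ℕ → Measure (LatSpace n)), (∀ i, μ i (packetSet (σ i) (O i))ᶜ = 0) →
        ∀ (m : Measure (LatSpace n)) [IsProbabilityMeasure m]
          [SMulInvariantMeasure (SLR n) (LatSpace n) m],
          (∀ f : C_c(LatSpace n, ℝ),
            Tendsto (fun i => ∫ x, f x ∂(μ i)) atTop (𝓝 (∫ x, f x ∂m))) →
          ∀ g : ℤ[X], (∀ z : ℤ, g.eval z ≠ 0) →
            ∀ᶠ i in atTop, ∀ s ∈ O i, aeval s g ≠ 0) :=
  ⟨fun n h4 hn => Vale.Agent.Results.P007.CompositeDegreeFull.result n h4 hn,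
   fun n hn K _ _ σ O μ hμ m _ _ hconv g hg =>
     Vale.Agent.Results.P007.SubfieldObstruction.result n hn K σ O μ hμ m hconv g hg⟩
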