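import Vale.Agent.Lib.P007.Composite
import Vale.Agent.Lib.P007.Nonempty

open MeasureTheory Filter Topology NumberField
open scoped CompactlySupported
open Vale.Agent.Lib.P007

/-- Every composite degree `n ≥ 4`: there are a totally real field `K` of degree `n` (with `σ`
listing its `n` real embeddings) and orders `O i` of `K` with `|Disc (O i)| → ∞`, with nonempty
packets, such that no sequence of probability measures carried by the packets of `(O i, σ)`
converges weakly to an `SL_n(ℝ)`-invariant probability measure on the space of lattices: one test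
function `f` has integral `0` against every such measure and positive integral against the
invariant measure. -/
theorem Vale.Agent.Results.P007.CompositeDegreeFull.result (n : ℕ) (h4 : 4 ≤ n)
    (hn : ¬ n.Prime) :
    ∃ (K : Type) (_ : Field K) (_ : NumberField K) (σ : Fin n ≃ (K →+* ℝ))
      (O : ℕ → Subring (𝓞 K)),
      IsTotallyReal K ∧ Module.finrank ℚ K = n ∧ (∀ i, IsOrder (O i)) ∧
      Tendsto (fun i => absDisc (O i)) atTop atTop ∧
      (∀ i, (packetSet σ (O i)).Nonempty) ∧
      ∀ (m : Measure (LatSpace n)) [IsProbabilityMeasure m]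
        [SMulInvariantMeasure (SLR n) (LatSpace n) m],
        ∃ f : C_c(LatSpace n, ℝ), 0 < ∫ x, f x ∂m ∧
          ∀ μ : ℕ → Measure (LatSpace n), (∀ i, IsProbabilityMeasure (μ i)) →
            (∀ i, μ i (packetSet σ (O i))ᶜ = 0) →
            (∀ i, ∫ x, f x ∂(μ i) = 0) ∧
            ¬ Tendsto (fun i => ∫ x, f x ∂(μ i)) atTop (𝓝 (∫ x, f x ∂m)) := by
  obtain ⟨k, l, hk, hl, rfl⟩ := (Nat.not_prime_iff_exists_mul_eq (by omega)).mp hn
  have hk2 : 2 ≤ k := by
    rcases k with _ | _ | k
    · simp at h4
    · simp at hl
    · omega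
  have hl2 : 2 ≤ l := by
    rcases l with _ | _ | l
    · simp at h4
    · simp at hk
    · omega
  obtain ⟨K, iF, iN, σ, O, hfin, hO, hdisc, hmain⟩ := fails_composite k l hk2 hl2
  exact ⟨K, iF, iN, σ, O, isTotallyReal_of_equiv σ hfin, hfin, hO, hdisc,
    fun i => packetSet_nonempty σ hfin (O i) (hO i), hmain⟩
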