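import Vale.Agent.Lib.P007.Quartic

open MeasureTheory Filter Topology NumberField
open scoped CompactlySupported
open Vale.Agent.Lib.P007

/-- Degree four: there are a totally real quartic field `K` (with `σ` listing its four real
embeddings) and orders `O i` of `K` with `|Disc (O i)| → ∞` such that no sequence of probability
measures carried by the packets of `(O i, σ)` converges weakly to an `SL_4(ℝ)`-invariant
probability measure on the space of lattices: one test function `f` has integral `0` against
every such measure, and positive integral against the invariant measure. -/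
theorem Vale.Agent.Results.P007.QuarticOrders.result :
    ∃ (K : Type) (_ : Field K) (_ : NumberField K) (σ : Fin 4 ≃ (K →+* ℝ))
      (O : ℕ → Subring (𝓞 K)),
      Module.finrank ℚ K = 4 ∧ (∀ i, IsOrder (O i)) ∧
      Tendsto (fun i => absDisc (O i)) atTop atTop ∧
      ∀ (m : Measure (LatSpace 4)) [IsProbabilityMeasure m]
        [SMulInvariantMeasure (SLR 4) (LatSpace 4) m],
        ∃ f : C_c(LatSpace 4, ℝ), 0 < ∫ x, f x ∂m ∧
          ∀ μ : ℕ → Measure (LatSpace 4), (∀ i, IsProbabilityMeasure (μ i)) →
            (∀ i, μ i (packetSet σ (O i))ᶜ = 0) →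
            (∀ i, ∫ x, f x ∂(μ i) = 0) ∧
            ¬ Tendsto (fun i => ∫ x, f x ∂(μ i)) atTop (𝓝 (∫ x, f x ∂m)) :=
  fails_four
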